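import Mathlib

open MeasureTheory

namespace Vale.Agent.P207.R2.H641

theorem cheb_strict {X : Type*} [TopologicalSpace X] [CompactSpace X] [MeasurableSpace X]
    [BorelSpace X] (μ : Measure X) [IsFiniteMeasure μ] [μ.IsOpenPosMeasure] {u : X → ℝ}
    (hu : Continuous u) (hne : ∃ x y, u x ≠ u y) {n : ℕ} (hn : 2 ≤ n) :
    (∫ x, Real.exp (u x) ∂μ) * (∫ x, Real.exp (((n : ℝ) - 1) * u x) ∂μ)
      < μ.real Set.univ * ∫ x, Real.exp ((n : ℝ) * u x) ∂μ := by
  obtain ⟨x0, y0, hxy⟩ := hne
  have : Nonempty X := ⟨x0⟩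
  set M : ℝ := μ.real Set.univ with hM
  have hMpos : 0 < M := by
    rw [hM, Measure.real, ENNReal.toReal_pos_iff]
    exact ⟨isOpen_univ.measure_pos μ Set.univ_nonempty, measure_lt_top μ _⟩
  set s : ℝ := (∫ x, Real.exp (u x) ∂μ) / M with hs
  have hint : ∀ f : X → ℝ, Continuous f → Integrable f μ := fun f hf =>
    hf.integrable_of_hasCompactSupport (HasCompactSupport.of_compactSpace f)
  have he1 : Continuous (fun x => Real.exp (u x)) := by fun_prop
  have he2 : Continuous (fun x => Real.exp (((n : ℝ) - 1) * u x)) := by fun_prop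
  have he3 : Continuous (fun x => Real.exp ((n : ℝ) * u x)) := by fun_prop
  have hs0 : 0 < s := by
    rw [hs]
    refine div_pos ?_ hMpos
    refine he1.integral_pos_of_hasCompactSupport_nonneg_nonzero
      (HasCompactSupport.of_compactSpace _) (fun x => (Real.exp_pos _).le) (x := x0)
      (Real.exp_pos _).ne'
  have hsM : ∫ x, Real.exp (u x) ∂μ = s * M := by
    rw [hs]; field_simp
  have hexp : ∀ x, Real.exp (((n : ℝ) - 1) * u x) = (Real.exp (u x)) ^ (n - 1) := by
    intro x
    rw [← Real.exp_nat_mul, Nat.cast_sub (by omega)]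
    simp
  have hexpn : ∀ x, Real.exp ((n : ℝ) * u x) = (Real.exp (u x)) ^ n := by
    intro x
    rw [← Real.exp_nat_mul]
  set g : X → ℝ := fun x => (Real.exp (u x) - s) * (Real.exp (((n : ℝ) - 1) * u x) - s ^ (n - 1)) with hg
  have hgc : Continuous g := by fun_prop
  have hg0 : ∀ x, 0 ≤ g x := by
    intro x
    simp only [hg, hexp]
    rcases le_total (Real.exp (u x)) s with h | h
    · exact mul_nonneg_of_nonpos_of_nonpos (by linarith)
        (by linarith [pow_le_pow_left₀ (Real.exp_pos (u x)).le h (n - 1)])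
    · exact mul_nonneg (by linarith) (by linarith [pow_le_pow_left₀ hs0.le h (n - 1)])
  have hgne : ∃ x, g x ≠ 0 := by
    by_contra hcon
    push Not at hcon
    have hall : ∀ x, Real.exp (u x) = s := by
      intro x
      rcases mul_eq_zero.1 (hcon x) with h | h
      · linarith
      · rw [hexp] at h
        have h1 : (Real.exp (u x)) ^ (n - 1) = s ^ (n - 1) := by linarith
        exact (pow_left_inj₀ (Real.exp_pos _).le hs0.le (by omega)).1 h1
    exact hxy (Real.exp_injective ((hall x0).trans (hall y0).symm))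
  obtain ⟨z, hz⟩ := hgne
  have hpos : 0 < ∫ x, g x ∂μ :=
    hgc.integral_pos_of_hasCompactSupport_nonneg_nonzero
      (HasCompactSupport.of_compactSpace _) hg0 hz
  have hcalc : ∫ x, g x ∂μ = (∫ x, Real.exp ((n : ℝ) * u x) ∂μ)
      - s * (∫ x, Real.exp (((n : ℝ) - 1) * u x) ∂μ) := by
    have h1 : g = fun x => (Real.exp ((n : ℝ) * u x) - s * Real.exp (((n : ℝ) - 1) * u x))
        - (s ^ (n - 1) * Real.exp (u x) - s ^ (n - 1) * s) := by
      funext x
      have h2 : Real.exp ((n : ℝ) * u x) = Real.exp (u x) * Real.exp (((n : ℝ) - 1) * u x) := by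
        rw [← Real.exp_add]; ring_nf
      simp only [hg, h2]
      ring
    rw [h1, integral_sub, integral_sub, integral_sub, integral_const_mul, integral_const_mul,
      integral_const, hsM, smul_eq_mul]
    · rw [← hM]; ring
    · exact (hint _ he1).const_mul _
    · exact integrable_const _
    · exact hint _ he3
    · exact (hint _ he2).const_mul _
    · exact (hint _ he3).sub ((hint _ he2).const_mul _)
    · exact ((hint _ he1).const_mul _).sub (integrable_const _)
  rw [hcalc] at hpos
  rw [hsM]
  nlinarith [mul_pos hMpos hpos]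

end Vale.Agent.P207.R2.H641
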